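import Vale.Agent.P345.Rec

theorem Vale.Agent.Results.P345.SingleFold.result (n : ℕ) (S : Set (Fin n → ℕ))
    (hS : REPred fun a : Fin n → ℕ => a ∈ S) :
    ∃ (m : ℕ) (P : MvPolynomial (Fin n ⊕ Fin m) ℤ),
      (∀ a : Fin n → ℕ, a ∈ S ↔ ∃ w : Fin m → ℕ,
        MvPolynomial.eval (fun i => ((Sum.elim a w i : ℕ) : ℤ)) P = 0) ∧
      ∀ a : Fin n → ℕ, Set.Subsingleton {w : Fin m → ℕ |
        MvPolynomial.eval (fun i => ((Sum.elim a w i : ℕ) : ℤ)) P = 0} := by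
  obtain ⟨m, P, h1, h2⟩ := (Vale.Agent.P345.sf_of_re hS).poly
  exact ⟨m, P, h1, fun a w hw w' hw' => h2 a w w' hw hw'⟩
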